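import Crest.Agent.R177.VanKampen.Fill

/-! Van Kampen lemma, part 6: from reduced pre-diagrams to diagrams. -/

set_option autoImplicit false

namespace Crest.Agent.R177.VanKampenAux

open Equiv

variable {V E T G A : Type} [Group G] [AddCommGroup A]
  {Γ : LG V E T} {π : FreeGroup T →* G} {F : G → E × Bool → A}

theorem Fill.exists_red (hF : Anti Γ π F) {k : ℕ} {g : G} {w : List (T × Bool)} {c : A}
    (h : Fill Γ π F k g w c) :
    ∃ (D : Type) (_ : Fintype D) (_ : DecidableEq D) (Δ : Dat G E T D) (bd : List D),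
      Ok Γ π Δ ∧ Bd Δ bd ∧ bd.map Δ.lab = w ∧ nBrk Γ Δ ≤ k ∧ tot F Δ = c ∧ Red Δ := by
  obtain ⟨-, D, i1, i2, Δ, bd, h1, h2, h3, -, h5, h6⟩ := h
  obtain ⟨Δ', k1, k2, k3, k4, k5, k6⟩ := reduce hF _ Δ le_rfl h1 h2
  exact ⟨D, i1, i2, Δ', bd, k1, k2, by rw [k3, h3], k4.trans h5, k5.trans h6, k6⟩

variable {D : Type} [DecidableEq D] {Δ : Dat G E T D}

/-- the diagram formed by the live darts -/
def Ok.toDiag (h : Ok Γ π Δ) (hr : Red Δ) : Diag Γ {d // d ∈ Δ.live} where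
  φ := Δ.φ.subtypePerm h.φ_live
  α := Δ.α.subtypePerm h.α_live
  lab d := Δ.lab d.1
  edge d := Δ.edge d.1
  α_α d := Subtype.ext (h.α_α d.1)
  α_ne d k := (h.live_iff d.1).1 d.2 (congrArg Subtype.val k)
  lab_α d := h.lab_α d.1 d.2
  lab_edge d := h.lab_edge d.1
  edge_φ d := h.edge_φ d.1
  planar := planar_subtype h.φ_live h.α_live h.planar
  red_α d ε ε' h1 h2 k := (hr d.1 d.2 ε h1).1 (by rw [← k]; exact h2)

theorem Ok.link (h : Ok Γ π Δ) (hr : Red Δ) (d : {d // d ∈ Δ.live})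
    (hd : d.1 ∉ brk Δ.φ (fun d => (Δ.edge d).map Γ.st) (fun d => (Δ.edge d).map Γ.en) Δ.live) :
    (h.toDiag hr).Link d := by
  intro ε ε' h1 h2
  change Δ.edge d.1 = some ε at h1
  change Δ.edge (Δ.φ d.1) = some ε' at h2
  refine ⟨?_, fun k => (hr d.1 d.2 ε h1).2 (by rw [← k]; exact h2)⟩
  by_contra k
  refine hd (mem_brk.2 ⟨d.2, ?_⟩)
  rw [h1, h2]
  simpa using k

theorem Ok.oneBdry (h : Ok Γ π Δ) (hr : Red Δ) {bd : List D} (hb : Bd Δ bd)
    (hw : NB (bd.map Δ.lab)) : (h.toDiag hr).OneBdry := by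
  constructor
  · intro d d' h1 h2
    exact (Perm.sameCycle_subtypePerm (h := h.φ_live)).2
      (hb.cyc.sameCycle ((hb.mem _).2 ⟨d.2, h1⟩) ((hb.mem _).2 ⟨d'.2, h2⟩))
  · intro d d' h1 h2 h3 h4
    have m1 := (hb.mem _).2 ⟨d.2, h1⟩
    have m2 := (hb.mem _).2 ⟨d'.2, h2⟩
    rcases bd with _ | ⟨a, l⟩
    · cases m1
    unfold NB at hw
    rw [List.isChain_map] at hw
    have key := path_chain (cyc_cons.1 hb.cyc) hw
    have e1 := (key _ m1).resolve_left (fun k => k h3)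
    have e2 := (key _ m2).resolve_left (fun k => k h4)
    exact Subtype.ext (Δ.φ.injective (e1.trans e2.symm))

omit [DecidableEq D] in
theorem card_filter_subtype (S : Finset D) (P : D → Prop) [DecidablePred P]
    [DecidablePred (fun d : {d // d ∈ S} => P d.1)] :
    (Finset.univ.filter (fun d : {d // d ∈ S} => P d.1)).card = (S.filter P).card := by
  rw [← Finset.card_map (Function.Embedding.subtype _)]
  congr 1
  ext x
  simp only [Finset.mem_map, Finset.mem_filter, Finset.mem_univ, true_and,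
    Function.Embedding.subtype_apply]
  exact ⟨fun ⟨y, h1, h2⟩ => h2 ▸ ⟨y.2, h1⟩, fun h => ⟨⟨x, h.1⟩, h.2, rfl⟩⟩

theorem Ok.nBdry (h : Ok Γ π Δ) (hr : Red Δ) {bd : List D} (hb : Bd Δ bd) :
    (h.toDiag hr).nBdry = bd.length := by
  classical
  unfold Diag.nBdry
  refine (card_filter_subtype Δ.live (fun d => Δ.edge d = none)).trans ?_
  rw [← List.toFinset_card_of_nodup hb.nodup]
  congr 1
  ext x
  rw [Finset.mem_filter, List.mem_toFinset, hb.mem]

theorem norm1_add_le {X : Type} (a b : X →₀ ℤ) : norm1 (a + b) ≤ norm1 a + norm1 b := by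
  classical
  unfold norm1
  have h0 : ∀ S : Finset X, ∀ i ∈ S, (fun (_ : X) (n : ℤ) => n.natAbs) i 0 = 0 := fun _ _ _ => rfl
  rw [Finsupp.sum_of_support_subset _ Finsupp.support_add _ (h0 _),
    Finsupp.sum_of_support_subset a (Finset.subset_union_left (s₂ := b.support)) _ (h0 _),
    Finsupp.sum_of_support_subset b (Finset.subset_union_right (s₁ := a.support)) _ (h0 _),
    ← Finset.sum_add_distrib]
  exact Finset.sum_le_sum fun i _ => Int.natAbs_add_le _ _

theorem norm1_neg {X : Type} (a : X →₀ ℤ) : norm1 (-a) = norm1 a := by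
  unfold norm1 Finsupp.sum
  rw [Finsupp.support_neg]
  exact Finset.sum_congr rfl fun i _ => Int.natAbs_neg _

theorem norm1_single {X : Type} (x : X) (n : ℤ) : norm1 (Finsupp.single x n) = n.natAbs := by
  unfold norm1
  rw [Finsupp.sum_single_index rfl]

theorem norm1_sum_le {X ι : Type} (S : Finset ι) (f : ι → X →₀ ℤ) :
    norm1 (∑ i ∈ S, f i) ≤ ∑ i ∈ S, norm1 (f i) :=
  Finset.le_sum_of_subadditive norm1 (le_of_eq rfl) norm1_add_le S f

theorem Ok.nInner (h : Ok Γ π Δ) (hr : Red Δ) {X : Type} {F : G → E × Bool → X →₀ ℤ}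
    (hF : ∀ g ε, norm1 (F g ε) ≤ 1) : norm1 (tot F Δ) ≤ (h.toDiag hr).nInner := by
  classical
  unfold Diag.nInner
  refine le_trans ?_ (card_filter_subtype Δ.live (fun d => Δ.edge d ≠ none)).ge
  refine (norm1_sum_le _ _).trans ?_
  rw [Finset.card_filter]
  refine Finset.sum_le_sum fun d _ => ?_
  rcases Δ.edge d with _ | ε
  · exact le_of_eq rfl
  · simpa using hF _ ε

/-! ### the two weights -/

/-- the weight that computes the two-chain -/
noncomputable def wChain (Γ : LG V E T) (ν : V → Γ.Grp) (g : Γ.Grp) (ε : E × Bool) :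
    Γ.Grp × E →₀ ℤ :=
  Finsupp.single (g * (ν (Γ.st ε))⁻¹, ε.1) (cond ε.2 (1 : ℤ) (-1))

theorem pot_edge {ν : V → Γ.Grp} (hν : Γ.IsPot ν) (ε : E × Bool) :
    ν (Γ.en ε) = ν (Γ.st ε) * val Γ.proj [Γ.lb ε] :=
  Γ.pot_walk hν (l := [ε]) ⟨rfl, rfl⟩

theorem anti_wChain {ν : V → Γ.Grp} (hν : Γ.IsPot ν) : Anti Γ Γ.proj (wChain Γ ν) := by
  intro g ε
  unfold wChain
  rw [LG.st_flp, pot_edge hν, mul_inv_rev, ← mul_assoc, mul_inv_cancel_right, ← Finsupp.single_neg]
  rcases ε with ⟨e, b⟩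
  cases b <;> rfl

theorem fsum_wChain {ν : V → Γ.Grp} (hν : Γ.IsPot ν) {y : V} :
    ∀ {l : List (E × Bool)} {x : V} (g : Γ.Grp), Γ.IsWalk x l y →
      fsum Γ Γ.proj (wChain Γ ν) g l = Γ.chain (g * (ν x)⁻¹) l
  | [], _, _, _ => rfl
  | ε :: l, x, g, h => by
    rw [fsum, fsum_wChain hν _ h.2, pot_edge hν, mul_inv_rev, ← mul_assoc, mul_inv_cancel_right,
      wChain, h.1]
    rfl

theorem fill_of_rel {ν : V → Γ.Grp} (hν : Γ.IsPot ν) {w : FreeGroup T} {c : Γ.Grp × E →₀ ℤ}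
    (h : Γ.Rel ν w c) : ∀ L, FreeGroup.mk L = w → Fill Γ Γ.proj (wChain Γ ν) 0 1 L (-c) := by
  induction h with
  | one =>
    intro L hL
    rw [neg_zero]
    exact (fill_nil 1).of_mk_eq (anti_wChain hν) hL.symm
  | step w c u x l hl _ ih =>
    intro L hL
    obtain ⟨W, rfl⟩ : ∃ W, FreeGroup.mk W = w := Quot.exists_rep w
    have hl' := Γ.isWalk_rev hl
    have := (ih W rfl).attach (anti_wChain hν) (w' := L) u hl' (Γ.proj_closed hl') (k' := 0)
      (Or.inr ⟨rfl, le_rfl⟩) (by rw [hL, LG.word_rev, inv_inv])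
    rwa [fsum_wChain hν _ hl', LG.chain_rev, ← neg_add] at this

open Classical in
/-- the weight that detects the broken corner -/
noncomputable def wMark (Γ : LG V E T) (z : V) (_ : G) (ε : E × Bool) : ℤ :=
  (if Γ.st ε = z then 1 else 0) - (if Γ.en ε = z then 1 else 0)

theorem anti_wMark (z : V) : Anti Γ π (wMark Γ z) := by
  intro g ε
  unfold wMark
  rw [LG.st_flp, LG.en_flp, neg_sub]

open Classical in
theorem fsum_wMark (z : V) {y : V} :
    ∀ {l : List (E × Bool)} {x : V} (g : G), Γ.IsWalk x l y →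
      fsum Γ π (wMark Γ z) g l = (if x = z then 1 else 0) - (if y = z then 1 else 0)
  | [], x, _, h => by
    have : x = y := h
    rw [this, sub_self]; rfl
  | ε :: l, x, g, h => by
    rw [fsum, fsum_wMark z _ h.2, wMark, h.1, sub_add_sub_cancel]

theorem fill_of_rel' (z : V) {ν : V → Γ.Grp} {w : FreeGroup T} {c : Γ.Grp × E →₀ ℤ}
    (h : Γ.Rel ν w c) : ∀ L, FreeGroup.mk L = w → Fill Γ Γ.proj (wMark Γ z) 0 1 L 0 := by
  induction h with
  | one =>
    intro L hL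
    exact (fill_nil 1).of_mk_eq (anti_wMark z) hL.symm
  | step w c u x l hl _ ih =>
    intro L hL
    obtain ⟨W, rfl⟩ : ∃ W, FreeGroup.mk W = w := Quot.exists_rep w
    have hl' := Γ.isWalk_rev hl
    have := (ih W rfl).attach (anti_wMark z) (w' := L) u hl' (Γ.proj_closed hl') (k' := 0)
      (Or.inr ⟨rfl, le_rfl⟩) (by rw [hL, LG.word_rev, inv_inv])
    rwa [fsum_wMark z _ hl', sub_self, add_zero] at this

omit [DecidableEq D] in
theorem Ok.exists_mark (h : Ok Γ π Δ) {z : V} (ht : tot (wMark Γ z) Δ = 1) :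
    ∃ d ∈ brk Δ.φ (fun d => (Δ.edge d).map Γ.st) (fun d => (Δ.edge d).map Γ.en) Δ.live,
      (Δ.edge (Δ.φ d)).map Γ.st = some z := by
  classical
  have e1 : tot (wMark Γ z) Δ = ∑ d ∈ Δ.live, (if (Δ.edge d).map Γ.st = some z then 1 else 0)
      - ∑ d ∈ Δ.live, (if (Δ.edge d).map Γ.en = some z then 1 else 0) := by
    unfold tot
    rw [← Finset.sum_sub_distrib]
    refine Finset.sum_congr rfl fun d _ => ?_
    rcases Δ.edge d with _ | ε
    · simp
    · simp [wMark]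
  have e2 : ∑ d ∈ Δ.live, (if (Δ.edge d).map Γ.st = some z then (1 : ℤ) else 0)
      = ∑ d ∈ Δ.live, (if (Δ.edge (Δ.φ d)).map Γ.st = some z then 1 else 0) :=
    (Finset.sum_equiv Δ.φ (fun d => (h.φ_live d).symm) (fun _ _ => rfl)).symm
  rw [e1, e2] at ht
  by_contra hcon
  have : ∑ d ∈ Δ.live, (if (Δ.edge (Δ.φ d)).map Γ.st = some z then (1 : ℤ) else 0)
      ≤ ∑ d ∈ Δ.live, (if (Δ.edge d).map Γ.en = some z then 1 else 0) := by
    refine Finset.sum_le_sum fun d hd => ?_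
    by_cases k : (Δ.edge (Δ.φ d)).map Γ.st = some z
    · have k2 : (Δ.edge d).map Γ.en = some z := by
        by_contra k3
        exact hcon ⟨d, mem_brk.2 ⟨hd, fun k4 => k3 (k4.trans k)⟩, k⟩
      rw [if_pos k, if_pos k2]
    · rw [if_neg k]
      split_ifs <;> norm_num
  omega

end Crest.Agent.R177.VanKampenAux
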