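import Crest.Agent.R177.PlanarMoves
import Crest.Agent.R177.RelBasic

/-! Van Kampen lemma, part 1: permutation and list bookkeeping, pre-diagrams. -/

set_option autoImplicit false

namespace Crest.Agent.R177.VanKampenAux

open Equiv

section skip

variable {D : Type} [DecidableEq D]

theorem skip_self (ψ : Perm D) (a : D) : skip ψ a a = a := by simp [skip]

theorem skip_of_eq (ψ : Perm D) {a x : D} (h : ψ x = a) : skip ψ a x = ψ a := by
  simp [skip, h]

theorem skip_of_ne (ψ : Perm D) {a x : D} (hx : x ≠ a) (h : ψ x ≠ a) : skip ψ a x = ψ x := by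
  simp only [skip, Perm.mul_apply]
  exact swap_apply_of_ne_of_ne h (fun h' => hx (ψ.injective h'))

theorem skip_of_fix (ψ : Perm D) {a : D} (h : ψ a = a) : skip ψ a = ψ := by
  ext x
  simp [skip, h]

/-- the face permutation after deleting the edge `{d, e}` -/
def del (φ : Perm D) (d e : D) : Perm D := skip (skip (φ * swap d e) d) e

theorem del_left (φ : Perm D) {d e : D} (h : d ≠ e) : del φ d e d = d := by
  unfold del
  rw [skip_of_ne _ h (by rw [skip_self]; exact h), skip_self]

theorem del_right (φ : Perm D) (d e : D) : del φ d e e = e := skip_self _ _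

theorem del_of_ne (φ : Perm D) {d e x : D} (h1 : x ≠ d) (h2 : x ≠ e) (h3 : φ x ≠ d)
    (h4 : φ x ≠ e) : del φ d e x = φ x := by
  have e1 : (φ * swap d e) x = φ x := by
    rw [Perm.mul_apply, swap_apply_of_ne_of_ne h1 h2]
  have e2 : skip (φ * swap d e) d x = φ x := by
    rw [skip_of_ne _ h1 (by rw [e1]; exact h3), e1]
  unfold del
  rw [skip_of_ne _ h2 (by rw [e2]; exact h4), e2]

theorem del_spur (φ : Perm D) {d e : D} (hne : d ≠ e) (h : φ d = e) :
    del φ d e = skip (skip φ e) d := by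
  have e1 : φ * swap d e = skip φ e := by
    rw [skip, mul_swap_eq_swap_mul, h]
  unfold del
  rw [e1]
  apply skip_of_fix
  rw [skip_of_ne _ hne.symm (by rw [skip_self]; exact hne.symm), skip_self]

open Classical in
/-- the elements of `S` whose `ψ`-step is broken -/
noncomputable def brk {X : Type} (ψ : Perm D) (a b : D → X) (S : Finset D) : Finset D :=
  S.filter (fun x => b x ≠ a (ψ x))

omit [DecidableEq D] in
theorem mem_brk {X : Type} {ψ : Perm D} {a b : D → X} {S : Finset D} {x : D} :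
    x ∈ brk ψ a b S ↔ x ∈ S ∧ b x ≠ a (ψ x) := by
  simp [brk]

theorem brk_skip {X : Type} (ψ : Perm D) (a b : D → X) (S : Finset D) {d : D} (hd : d ∈ S)
    (hab : a d = b d) : (brk (skip ψ d) a b (S.erase d)).card ≤ (brk ψ a b S).card := by
  classical
  refine Finset.card_le_card_of_injOn (fun x => if ψ x = d ∧ b x = a d then d else x) ?_ ?_
  · intro x hx
    obtain ⟨hx1, hx2⟩ := mem_brk.1 (Finset.mem_coe.1 hx)
    obtain ⟨hxd, hxS⟩ := Finset.mem_erase.1 hx1
    refine Finset.mem_coe.2 (mem_brk.2 ?_)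
    by_cases h : ψ x = d ∧ b x = a d
    · simp only [if_pos h]
      refine ⟨hd, ?_⟩
      rw [skip_of_eq _ h.1, h.2, hab] at hx2
      exact hx2
    · simp only [if_neg h]
      refine ⟨hxS, ?_⟩
      by_cases h1 : ψ x = d
      · rw [h1]; exact fun h2 => h ⟨h1, h2⟩
      · rwa [skip_of_ne _ hxd h1] at hx2
  · intro x hx y hy hxy
    have hxd := (Finset.mem_erase.1 (mem_brk.1 (Finset.mem_coe.1 hx)).1).1
    have hyd := (Finset.mem_erase.1 (mem_brk.1 (Finset.mem_coe.1 hy)).1).1
    simp only at hxy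
    split_ifs at hxy with h1 h2 h2
    · exact ψ.injective (h1.1.trans h2.1.symm)
    · exact absurd hxy.symm hyd
    · exact absurd hxy hxd
    · exact hxy

theorem brk_del {X : Type} (φ : Perm D) (a b : D → X) (S : Finset D) {d e : D} (hne : d ≠ e)
    (hd : d ∈ S) (he : e ∈ S) (h1 : b d = a e) (h2 : b e = a d) :
    (brk (del φ d e) a b ((S.erase d).erase e)).card ≤ (brk φ a b S).card := by
  have s1 : brk (del φ d e) a b ((S.erase d).erase e)
      = brk (del φ d e) a (fun x => b (swap d e x)) ((S.erase d).erase e) := by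
    ext x
    simp only [mem_brk, Finset.mem_erase]
    refine and_congr_right fun hx => ?_
    rw [swap_apply_of_ne_of_ne hx.2.1 hx.1]
  rw [s1]
  refine (brk_skip _ a _ _ (Finset.mem_erase.2 ⟨hne.symm, he⟩) (by simp [h1])).trans ?_
  refine (brk_skip _ a _ _ hd (by simp [h2])).trans ?_
  refine Finset.card_le_card_of_injOn (swap d e) ?_ (swap d e).injective.injOn
  intro x hx
  obtain ⟨hx1, hx2⟩ := mem_brk.1 (Finset.mem_coe.1 hx)
  refine Finset.mem_coe.2 (mem_brk.2 ⟨?_, hx2⟩)
  rw [swap_apply_def]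
  split_ifs <;> assumption

theorem del_step {X : Type} (φ : Perm D) (a b : D → X) (S : Finset D) {d e : D} (hne : d ≠ e)
    (hd : d ∈ S) (he : e ∈ S) (h1 : b d = a e) (h2 : b e = a d)
    (h : ∀ x ∈ S, b x = a (φ x)) {x : D} (hx : x ∈ S) (hxd : x ≠ d) (hxe : x ≠ e) :
    b x = a (del φ d e x) := by
  have h3 := brk_del φ a b S hne hd he h1 h2
  have h4 : brk φ a b S = ∅ := by
    rw [Finset.eq_empty_iff_forall_notMem]
    intro y hy
    exact (mem_brk.1 hy).2 (h y (mem_brk.1 hy).1)
  rw [h4, Finset.card_empty, Nat.le_zero, Finset.card_eq_zero] at h3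
  by_contra hcon
  have : x ∈ brk (del φ d e) a b ((S.erase d).erase e) :=
    mem_brk.2 ⟨by simp [hx, hxd, hxe], hcon⟩
  rw [h3] at this
  exact absurd this (Finset.notMem_empty _)

end skip

section cyc

variable {D : Type}

/-- `φ` acts on the list as the cyclic successor -/
def Cyc (φ : Perm D) (l : List D) : Prop := l.map φ = l.rotate 1

theorem cyc_nil (φ : Perm D) : Cyc φ [] := rfl

theorem cyc_cons {φ : Perm D} {a : D} {l : List D} :
    Cyc φ (a :: l) ↔ (a :: l).map φ = l ++ [a] := by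
  unfold Cyc
  rw [List.rotate_cons_succ, List.rotate_zero]

theorem Cyc.rot {φ : Perm D} {a : D} {l : List D} (h : Cyc φ (a :: l)) : Cyc φ (l ++ [a]) := by
  have e : l ++ [a] = (a :: l).rotate 1 := by rw [List.rotate_cons_succ, List.rotate_zero]
  unfold Cyc at h ⊢
  rw [e, List.map_rotate, h]

theorem Cyc.congr {φ φ' : Perm D} {l : List D} (h : Cyc φ l) (he : ∀ x ∈ l, φ' x = φ x) :
    Cyc φ' l := by
  unfold Cyc at h ⊢
  rw [← h]
  exact List.map_congr_left he

theorem Cyc.mem {φ : Perm D} {l : List D} (h : Cyc φ l) {x : D} (hx : x ∈ l) : φ x ∈ l := by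
  have : φ x ∈ l.map φ := List.mem_map_of_mem hx
  rw [h] at this
  exact List.mem_rotate.1 this

theorem Cyc.mem_iff {φ : Perm D} {l : List D} (h : Cyc φ l) {x : D} : φ x ∈ l ↔ x ∈ l := by
  refine ⟨fun hx => ?_, h.mem⟩
  have : φ x ∈ l.map φ := by rw [h]; exact List.mem_rotate.2 hx
  obtain ⟨y, hy, hyx⟩ := List.mem_map.1 this
  rwa [← φ.injective hyx]

theorem Cyc.skip [DecidableEq D] {φ : Perm D} {a : D} {l : List D} (hn : (a :: l).Nodup)
    (h : Cyc φ (a :: l)) : Cyc (skip φ a) l := by
  rcases l with _ | ⟨r, l⟩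
  · exact cyc_nil _
  rw [cyc_cons] at h ⊢
  simp only [List.map_cons, List.cons_append, List.cons.injEq] at h
  obtain ⟨h1, h2⟩ := h
  have h3 : (r :: l).map (R177.skip φ a) = ((r :: l).map φ).map (swap a r) := by
    rw [List.map_map, R177.skip, h1]; rfl
  rw [h3, List.map_cons, h2, List.map_append, List.map_singleton, swap_apply_left]
  congr 1
  rw [List.nodup_cons, List.nodup_cons] at hn
  conv_rhs => rw [← List.map_id l]
  refine List.map_congr_left fun x hx => swap_apply_of_ne_of_ne ?_ ?_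
  · rintro rfl; exact hn.1 (List.mem_cons_of_mem _ hx)
  · rintro rfl; exact hn.2.1 hx

theorem path_sameCycle {φ : Perm D} {z : D} :
    ∀ {l : List D} {a : D}, (a :: l).map φ = l ++ [z] → ∀ x ∈ a :: l, φ.SameCycle a x
  | [], a, _, x, hx => by
    rw [List.mem_singleton.1 hx]
  | b :: l, a, h, x, hx => by
    simp only [List.map_cons, List.cons_append, List.cons.injEq] at h
    rcases List.mem_cons.1 hx with rfl | hx
    · rfl
    · have h1 : φ.SameCycle a b := by rw [← h.1]; exact Perm.SameCycle.rfl.apply_right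
      exact h1.trans (path_sameCycle (l := l) (a := b) h.2 x hx)

theorem Cyc.sameCycle {φ : Perm D} {l : List D} (h : Cyc φ l) {x y : D} (hx : x ∈ l)
    (hy : y ∈ l) : φ.SameCycle x y := by
  rcases l with _ | ⟨a, l⟩
  · cases hx
  rw [cyc_cons] at h
  exact (path_sameCycle h x hx).symm.trans (path_sameCycle h y hy)

theorem path_chain {φ : Perm D} {z : D} {R : D → D → Prop} :
    ∀ {l : List D} {a : D}, (a :: l).map φ = l ++ [z] → (a :: l).IsChain R →
      ∀ x ∈ a :: l, R x (φ x) ∨ φ x = z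
  | [], a, h, _, x, hx => by
    rw [List.mem_singleton.1 hx]
    right; simpa using h
  | b :: l, a, h, hc, x, hx => by
    simp only [List.map_cons, List.cons_append, List.cons.injEq] at h
    rw [List.isChain_cons_cons] at hc
    rcases List.mem_cons.1 hx with rfl | hx
    · left; rw [h.1]; exact hc.1
    · exact path_chain (l := l) (a := b) h.2 hc.2 x hx

theorem exists_map_eq {X : Type} : ∀ {p : List D} {l : List X}, p.Nodup → p.length = l.length →
    ∀ _ : X, ∃ f : D → X, p.map f = l
  | [], l, _, h, x0 => ⟨fun _ => x0, by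
      rw [List.map_nil]; exact (List.length_eq_zero_iff.1 h.symm).symm⟩
  | a :: p, [], _, h, _ => by simp at h
  | a :: p, y :: l, hn, h, x0 => by
    classical
    rw [List.nodup_cons] at hn
    obtain ⟨f, hf⟩ := exists_map_eq hn.2 (by simpa using h) x0
    refine ⟨Function.update f a y, ?_⟩
    rw [List.map_cons, Function.update_self, ← hf]
    congr 1
    refine List.map_congr_left fun x hx => Function.update_of_ne ?_ _ _
    rintro rfl; exact hn.1 hx

end cyc

/-! ### pre-diagrams -/

/-- the data of a pre-diagram -/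
structure Dat (G E T D : Type) where
  φ : Perm D
  α : Perm D
  live : Finset D
  lab : D → T × Bool
  edge : D → Option (E × Bool)
  pos : D → G

variable {V E T G A : Type} [Group G] [AddCommGroup A]

/-- value of a word -/
def val (π : FreeGroup T →* G) (w : List (T × Bool)) : G := π (FreeGroup.mk w)

theorem val_nil (π : FreeGroup T →* G) : val π [] = 1 := map_one π

theorem val_append (π : FreeGroup T →* G) (w w' : List (T × Bool)) :
    val π (w ++ w') = val π w * val π w' := by
  rw [val, ← FreeGroup.mul_mk, map_mul]; rfl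

theorem val_cons (π : FreeGroup T →* G) (x : T × Bool) (w : List (T × Bool)) :
    val π (x :: w) = val π [x] * val π w := val_append π [x] w

theorem val_flp (π : FreeGroup T →* G) (x : T × Bool) : val π [flp x] = (val π [x])⁻¹ := by
  rw [val, val, ← map_inv, FreeGroup.inv_mk]; rfl

/-- the axioms of a pre-diagram -/
structure Ok (Γ : LG V E T) (π : FreeGroup T →* G) {D : Type} (Δ : Dat G E T D) : Prop where
  α_α : ∀ d, Δ.α (Δ.α d) = d
  live_iff : ∀ d, d ∈ Δ.live ↔ Δ.α d ≠ d
  dead : ∀ d, d ∉ Δ.live → Δ.φ d = d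
  lab_α : ∀ d ∈ Δ.live, Δ.lab (Δ.α d) = flp (Δ.lab d)
  lab_edge : ∀ d ε, Δ.edge d = some ε → Δ.lab d = Γ.lb ε
  edge_φ : ∀ d, Δ.edge (Δ.φ d) = none ↔ Δ.edge d = none
  pos_φ : ∀ d ∈ Δ.live, Δ.pos (Δ.φ d) = Δ.pos d * val π [Δ.lab d]
  pos_α : ∀ d ∈ Δ.live, Δ.pos (Δ.α d) = Δ.pos d * val π [Δ.lab d]
  planar : Planar Δ.φ Δ.α

/-- `bd` lists the live boundary darts in cyclic order -/
structure Bd {D : Type} (Δ : Dat G E T D) (bd : List D) : Prop where
  nodup : bd.Nodup
  mem : ∀ d, d ∈ bd ↔ d ∈ Δ.live ∧ Δ.edge d = none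
  cyc : Cyc Δ.φ bd

/-- number of broken corners -/
noncomputable def nBrk (Γ : LG V E T) {D : Type} (Δ : Dat G E T D) : ℕ :=
  (brk Δ.φ (fun d => (Δ.edge d).map Γ.st) (fun d => (Δ.edge d).map Γ.en) Δ.live).card

/-- total weight of the inner darts -/
def tot (F : G → E × Bool → A) {D : Type} (Δ : Dat G E T D) : A :=
  ∑ d ∈ Δ.live, (Δ.edge d).elim 0 (F (Δ.pos d))

/-- antisymmetry of the weight -/
def Anti (Γ : LG V E T) (π : FreeGroup T →* G) (F : G → E × Bool → A) : Prop :=
  ∀ g ε, F (g * val π [Γ.lb ε]) (flp ε) = -F g ε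

namespace Ok

variable {Γ : LG V E T} {π : FreeGroup T →* G} {D : Type} {Δ : Dat G E T D} (h : Ok Γ π Δ)
include h

theorem α_live (d : D) : Δ.α d ∈ Δ.live ↔ d ∈ Δ.live := by
  rw [h.live_iff, h.live_iff, h.α_α]
  exact ne_comm

theorem φ_live (d : D) : Δ.φ d ∈ Δ.live ↔ d ∈ Δ.live := by
  constructor
  · intro h1
    by_contra h2
    rw [h.dead d h2] at h1
    exact h2 h1
  · intro h1
    by_contra h2
    have := Δ.φ.injective (h.dead _ h2)
    rw [this] at h2
    exact h2 h1

theorem α_dead {d : D} (hd : d ∉ Δ.live) : Δ.α d = d := by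
  by_contra h1
  exact hd ((h.live_iff d).2 h1)

theorem path_pos {z : D} : ∀ {l : List D} {a : D}, (a :: l).map Δ.φ = l ++ [z] →
    (∀ x ∈ a :: l, x ∈ Δ.live) → Δ.pos z = Δ.pos a * val π ((a :: l).map Δ.lab)
  | [], a, h1, h2 => by
    have : Δ.φ a = z := by simpa using h1
    rw [← this, h.pos_φ a (h2 a List.mem_cons_self)]; rfl
  | b :: l, a, h1, h2 => by
    simp only [List.map_cons, List.cons_append, List.cons.injEq] at h1
    have h3 : val π ((a :: b :: l).map Δ.lab) = val π [Δ.lab a] * val π ((b :: l).map Δ.lab) :=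
      val_cons π _ _
    rw [h3, path_pos (l := l) (a := b) h1.2 (fun x hx => h2 x (List.mem_cons_of_mem _ hx)),
      ← mul_assoc, ← h.pos_φ a (h2 a List.mem_cons_self), h1.1]

end Ok

end Crest.Agent.R177.VanKampenAux
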