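import Crest.Agent.R177.VanKampen.Pinch

/-! Van Kampen lemma, part 5: fillings of words. -/

set_option autoImplicit false

namespace Crest.Agent.R177.VanKampenAux

open Equiv

variable {V E T G A : Type} [Group G] [AddCommGroup A]

/-- there is a pre-diagram with at most `k` broken corners and total weight `c` whose boundary
reads `w` from position `g` -/
def Fill (Γ : LG V E T) (π : FreeGroup T →* G) (F : G → E × Bool → A) (k : ℕ) (g : G)
    (w : List (T × Bool)) (c : A) : Prop :=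
  val π w = 1 ∧ ∃ (D : Type) (_ : Fintype D) (_ : DecidableEq D) (Δ : Dat G E T D) (bd : List D),
    Ok Γ π Δ ∧ Bd Δ bd ∧ bd.map Δ.lab = w ∧ (∀ d ∈ bd.head?, Δ.pos d = g) ∧
      nBrk Γ Δ ≤ k ∧ tot F Δ = c

variable {Γ : LG V E T} {π : FreeGroup T →* G} {F : G → E × Bool → A} {k : ℕ} {g : G} {c : A}

theorem fill_nil (g : G) : Fill Γ π F 0 g [] 0 := by
  refine ⟨val_nil π, Empty, inferInstance, inferInstance,
    ⟨1, 1, ∅, Empty.elim, Empty.elim, Empty.elim⟩, [],
    ⟨?_, ?_, ?_, ?_, ?_, ?_, ?_, ?_, planar_one⟩, ⟨List.nodup_nil, ?_, cyc_nil _⟩, rfl, ?_, ?_,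
    rfl⟩
  all_goals first
    | exact fun d => d.elim
    | exact Nat.le_of_eq (Finset.card_eq_zero.2 (Finset.eq_empty_of_isEmpty _))

theorem Fill.nil_base (h : Fill Γ π F k g [] c) (g' : G) : Fill Γ π F k g' [] c := by
  obtain ⟨hv, D, i1, i2, Δ, bd, h1, h2, h3, -, h5, h6⟩ := h
  rw [List.map_eq_nil_iff] at h3
  subst h3
  exact ⟨hv, D, i1, i2, Δ, [], h1, h2, rfl, by simp, h5, h6⟩

theorem Fill.rot1 {x : T × Bool} {w : List (T × Bool)} (h : Fill Γ π F k g (x :: w) c) :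
    Fill Γ π F k (g * val π [x]) (w ++ [x]) c := by
  obtain ⟨hv, D, i1, i2, Δ, bd, h1, h2, h3, h4, h5, h6⟩ := h
  obtain ⟨d, l, rfl, hd, hl⟩ := List.map_eq_cons_iff.1 h3
  refine ⟨?_, D, i1, i2, Δ, l ++ [d], h1, ⟨?_, fun t => ?_, h2.cyc.rot⟩, ?_, ?_, h5, h6⟩
  · rw [val_cons] at hv
    rw [val_append]
    exact mul_eq_one_comm.1 hv
  · exact (List.perm_append_singleton d l).nodup_iff.2 h2.nodup
  · rw [← h2.mem]
    exact (List.perm_append_singleton d l).mem_iff
  · rw [List.map_append, hl, ← hd]; rfl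
  · intro t ht
    rw [← cyc_cons.1 h2.cyc] at ht
    have : Δ.φ d = t := by simpa using ht
    rw [← this, h1.pos_φ d ((h2.mem d).1 List.mem_cons_self).1, h4 d (by simp), hd]

theorem Fill.rot {w1 : List (T × Bool)} : ∀ {w2 : List (T × Bool)} {g : G},
    Fill Γ π F k g (w1 ++ w2) c → Fill Γ π F k (g * val π w1) (w2 ++ w1) c := by
  induction w1 with
  | nil => intro w2 g h; simpa [val_nil] using h
  | cons x w1 ih =>
    intro w2 g h
    have h1 : Fill Γ π F k (g * val π [x]) (w1 ++ (w2 ++ [x])) c := by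
      have := Fill.rot1 (x := x) (w := w1 ++ w2) h
      rwa [List.append_assoc] at this
    have h2 := ih h1
    rw [val_cons, ← mul_assoc]
    simpa using h2

theorem fill_rot_iff {w1 w2 : List (T × Bool)} :
    Fill Γ π F k g (w1 ++ w2) c ↔ Fill Γ π F k (g * val π w1) (w2 ++ w1) c := by
  refine ⟨Fill.rot, fun h => ?_⟩
  have h1 := h.rot
  have h2 := h1.1
  rw [val_append] at h2
  rwa [mul_assoc, h2, mul_one] at h1

theorem fresh_ext {D : Type} (Δ : Dat G E T D) (y : T × Bool) (g : G) :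
    Fresh π (Δ.ext (fun b => cond b (flp y) y) (fun b => cond b (g * val π [y]) g))
      (Sum.inr false) (Sum.inr true) :=
  ⟨by simp, ext_live_inr _ _ _, ext_live_inr _ _ _, rfl, rfl, rfl, rfl⟩

theorem Fill.ins_nil (h : Fill Γ π F k g [] c) (y : T × Bool) :
    Fill Γ π F k g [y, flp y] c := by
  obtain ⟨-, D, i1, i2, Δ, bd, h1, h2, h3, -, h5, h6⟩ := h
  rw [List.map_eq_nil_iff] at h3
  subst h3
  obtain ⟨Δ', k1, k2, k3, k4, k5, k6⟩ :=
    (h1.ext _ _).newSpur (F := F) (h2.ext _ _) (fresh_ext Δ y g)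
  refine ⟨?_, D ⊕ Bool, inferInstance, inferInstance, Δ', _, k1, k2, ?_, ?_, ?_, ?_⟩
  · rw [val_cons, val_flp, mul_inv_cancel]
  · rw [k3]; rfl
  · intro d hd
    have : Sum.inr false = d := by simpa using hd
    rw [← this, k4]; rfl
  · rw [nBrk_ext] at k5
    exact k5.trans h5
  · rw [k6, tot_ext, h6]

theorem Fill.ins_cons {x : T × Bool} {w : List (T × Bool)} (h : Fill Γ π F k g (x :: w) c)
    (y : T × Bool) : Fill Γ π F k g (x :: y :: flp y :: w) c := by
  obtain ⟨hv, D, i1, i2, Δ, bd, h1, h2, h3, h4, h5, h6⟩ := h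
  obtain ⟨d, l, rfl, hd, hl⟩ := List.map_eq_cons_iff.1 h3
  obtain ⟨Δ', k1, k2, k3, k4, k5, k6⟩ :=
    (h1.ext _ _).spur (F := F) (h2.ext _ _) (fresh_ext Δ y (Δ.pos d * val π [Δ.lab d])) rfl
  refine ⟨?_, D ⊕ Bool, inferInstance, inferInstance, Δ', _, k1, k2, ?_, ?_, ?_, ?_⟩
  · rw [val_cons] at hv
    rw [val_cons, val_cons π y, val_cons π (flp y), val_flp, mul_inv_cancel_left, hv]
  · rw [k3, ← hd, ← hl]
    simp only [List.map_cons, List.map_map]
    rfl
  · intro t ht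
    have : Sum.inl d = t := by simpa using ht
    rw [← this, k4]
    exact h4 d (by simp)
  · rw [nBrk_ext] at k5
    exact k5.trans h5
  · rw [k6, tot_ext, h6]

theorem Fill.ins_front {w : List (T × Bool)} (h : Fill Γ π F k g w c) (y : T × Bool) :
    Fill Γ π F k g (y :: flp y :: w) c := by
  rcases List.eq_nil_or_concat w with rfl | ⟨w', x, rfl⟩
  · exact h.ins_nil y
  · rw [List.concat_eq_append] at h ⊢
    have h1 := (h.rot.ins_cons y).rot1
    have h2 := h.1
    rw [val_append] at h2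
    rwa [mul_assoc, h2, mul_one] at h1

theorem Fill.del_front (hF : Anti Γ π F) {w : List (T × Bool)} {y : T × Bool}
    (h : Fill Γ π F k g (y :: flp y :: w) c) : Fill Γ π F k g w c := by
  obtain ⟨hv, D, i1, i2, Δ, bd, h1, h2, h3, h4, h5, h6⟩ := h
  obtain ⟨d, l, rfl, hd, hl⟩ := List.map_eq_cons_iff.1 h3
  obtain ⟨e, l, rfl, he, hl⟩ := List.map_eq_cons_iff.1 hl
  have hc := cyc_cons.1 h2.cyc
  simp only [List.map_cons, List.cons_append, List.cons.injEq] at hc
  have md := (h2.mem d).1 List.mem_cons_self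
  have me := (h2.mem e).1 (List.mem_cons_of_mem _ List.mem_cons_self)
  obtain ⟨α', k1, k2⟩ := h1.diamond md.1 (by rw [hc.1, he, hd])
  have k3 : (Δ.setα α').α d = e := k2.trans hc.1
  have k4 : (Δ.setα α').edge ((Δ.setα α').α d) = ((Δ.setα α').edge d).map flp := by
    rw [k3]
    change Δ.edge e = (Δ.edge d).map flp
    rw [md.2, me.2]; rfl
  refine ⟨?_, D, i1, i2, (Δ.setα α').del d, l, k1.del md.1 k4,
    bd_del_spur (Δ := Δ.setα α') ⟨h2.nodup, h2.mem, h2.cyc⟩ k3, hl, ?_,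
    (k1.nBrk_del md.1 k4).trans h5, (k1.tot_del hF md.1 k4).trans h6⟩
  · rwa [val_cons, val_cons π (flp y), val_flp, mul_inv_cancel_left] at hv
  · intro t ht
    change Δ.pos t = g
    have h7 : Δ.φ e = t := by
      rcases l with _ | ⟨r, l⟩
      · simp at ht
      · have : r = t := by simpa using ht
        rw [← this]
        exact (List.cons.inj hc.2).1
    rw [← h7, h1.pos_φ e me.1, ← hc.1, h1.pos_φ d md.1, hc.1, he, hd, val_flp,
      mul_inv_cancel_right]
    exact h4 d (by simp)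

theorem fill_step (hF : Anti Γ π F) {w w' : List (T × Bool)} (h : FreeGroup.Red.Step w w') :
    Fill Γ π F k g w c ↔ Fill Γ π F k g w' c := by
  obtain @⟨w1, w2, x, b⟩ := h
  rw [fill_rot_iff, fill_rot_iff (w1 := w1) (w2 := w2)]
  exact ⟨fun h => Fill.del_front hF (y := (x, b)) h, fun h => h.ins_front (x, b)⟩

theorem fill_red (hF : Anti Γ π F) {w w' : List (T × Bool)} (h : FreeGroup.Red w w') :
    Fill Γ π F k g w c ↔ Fill Γ π F k g w' c := by
  induction h with
  | refl => rfl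
  | tail _ h2 ih => exact ih.trans (fill_step hF h2)

theorem Fill.of_mk_eq (hF : Anti Γ π F) {w w' : List (T × Bool)} (h : Fill Γ π F k g w c)
    (he : FreeGroup.mk w = FreeGroup.mk w') : Fill Γ π F k g w' c := by
  obtain ⟨u, h1, h2⟩ := FreeGroup.Red.exact.1 he
  exact (fill_red hF h2).2 ((fill_red hF h1).1 h)

theorem Fill.pinch {x y : V} {l : List (E × Bool)} (hw : Γ.IsWalk x l y)
    (hv : val π (l.map Γ.lb) = 1) {w : List (T × Bool)}
    (h : Fill Γ π F k g (l.map Γ.lb ++ w) c) {k' : ℕ} (hk : k + 1 ≤ k' ∨ (x = y ∧ k ≤ k')) :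
    Fill Γ π F k' g w (c + fsum Γ π F g l) := by
  have hkk : k ≤ k' := by omega
  obtain ⟨hv', D, i1, i2, Δ, bd, h1, h2, h3, h4, h5, h6⟩ := h
  rw [val_append, hv, one_mul] at hv'
  obtain ⟨p, q, rfl, hp, hq⟩ := List.map_eq_append_iff.1 h3
  rcases p with _ | ⟨a, p⟩
  · have : l = [] := by simpa using hp.symm
    subst this
    exact ⟨hv', D, i1, i2, Δ, q, h1, h2, hq, h4, h5.trans hkk, by simp [fsum, h6]⟩
  have ha : Δ.pos a = g := h4 a (by simp)
  have hb : ∀ t ∈ q.head?, Δ.pos t = g := by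
    intro t ht
    rcases q with _ | ⟨b, q⟩
    · simp at ht
    have : b = t := by simpa using ht
    subst this
    have hc : ((a :: p) ++ (b :: q)).map Δ.φ = (p ++ [b]) ++ (q ++ [a]) := by
      have : (a :: (p ++ b :: q)).map Δ.φ = (p ++ b :: q) ++ [a] := cyc_cons.1 h2.cyc
      rw [List.cons_append, this]
      simp
    rw [List.map_append] at hc
    obtain ⟨c1, -⟩ := List.append_inj hc (by simp)
    rw [h1.path_pos c1 (fun x hx => ((h2.mem x).1 (List.mem_append_left _ hx)).1), hp, hv,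
      mul_one, ha]
  obtain ⟨Δ1, a1, a2, a3, a4, a5, a6⟩ := h1.pinch (F := F) h2 (by rw [hp, hv])
  obtain ⟨Δ2, b1, b2, b3, b4, b5, b6, b7⟩ := a1.relabel (F := F) a2 hw (by rw [a3, hp])
  refine ⟨hv', D, i1, i2, Δ2, q, b1, b2, by rw [b3, a3, hq], ?_, ?_, ?_⟩
  · rw [b4, a4]; exact hb
  · rcases hk with hk | hk
    · omega
    · have := b6 hk.1
      omega
  · rw [b7, a6, h6, a4, ha]

/-- multiply the boundary word by a conjugate of the inverse label of a walk -/
theorem Fill.attach (hF : Anti Γ π F) {w w' : List (T × Bool)} (h : Fill Γ π F k 1 w c)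
    (u : FreeGroup T) {x y : V} {l : List (E × Bool)} (hw : Γ.IsWalk x l y)
    (hv : π (Γ.word l) = 1) {k' : ℕ} (hk : k + 1 ≤ k' ∨ (x = y ∧ k ≤ k'))
    (he : FreeGroup.mk w' = FreeGroup.mk w * (u * (Γ.word l)⁻¹ * u⁻¹)) :
    Fill Γ π F k' 1 w' (c + fsum Γ π F (π u) l) := by
  obtain ⟨U, rfl⟩ : ∃ U, FreeGroup.mk U = u := Quot.exists_rep u
  have h1 : Fill Γ π F k 1 ((w' ++ U) ++ (l.map Γ.lb ++ FreeGroup.invRev U)) c := by
    refine h.of_mk_eq hF ?_
    rw [← FreeGroup.mul_mk, ← FreeGroup.mul_mk, ← FreeGroup.mul_mk, ← FreeGroup.inv_mk, he]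
    change _ = _ * _ * (Γ.word l * _)
    group
  have hw' : val π w' = 1 := by
    have := h.1
    unfold val at this ⊢
    rw [he, map_mul, map_mul, map_mul, this, map_inv, hv, map_inv]
    group
  have h2 := h1.rot
  rw [one_mul, val_append, hw', one_mul, List.append_assoc] at h2
  have h3 := Fill.pinch hw hv h2 hk
  have h4 : Fill Γ π F k' 1 ((w' ++ U) ++ FreeGroup.invRev U)
      (c + fsum Γ π F (val π U) l) := by
    rw [fill_rot_iff, one_mul, val_append, hw', one_mul]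
    exact h3
  refine h4.of_mk_eq hF ?_
  rw [← FreeGroup.mul_mk, ← FreeGroup.mul_mk, ← FreeGroup.inv_mk, mul_inv_cancel_right]

end Crest.Agent.R177.VanKampenAux
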