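import Crest.Agent.R177.VanKampen.Moves

/-! Van Kampen lemma, part 3: adjoining darts, inserting spurs, pinching off a face. -/

set_option autoImplicit false

namespace Crest.Agent.R177.VanKampenAux

open Equiv

variable {V E T G A : Type} [Group G] [AddCommGroup A]
  {Γ : LG V E T} {π : FreeGroup T →* G} {F : G → E × Bool → A}
  {D : Type} [DecidableEq D] {Δ : Dat G E T D}

/-- adjoin two dead darts with prescribed labels and positions -/
def Dat.ext (Δ : Dat G E T D) (y : Bool → T × Bool) (g : Bool → G) : Dat G E T (D ⊕ Bool) where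
  φ := Perm.sumCongr Δ.φ 1
  α := Perm.sumCongr Δ.α 1
  live := Δ.live.map Function.Embedding.inl
  lab := Sum.elim Δ.lab y
  edge := Sum.elim Δ.edge (fun _ => none)
  pos := Sum.elim Δ.pos g

section ext

variable (y : Bool → T × Bool) (g : Bool → G)

omit [Group G] [DecidableEq D] in
theorem ext_live_inl (x : D) : Sum.inl x ∈ (Δ.ext y g).live ↔ x ∈ Δ.live := by
  simp [Dat.ext]

omit [Group G] [DecidableEq D] in
theorem ext_live_inr (b : Bool) : Sum.inr b ∉ (Δ.ext y g).live := by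
  simp [Dat.ext]

theorem Ok.ext (h : Ok Γ π Δ) : Ok Γ π (Δ.ext y g) := by
  refine ⟨?_, ?_, ?_, ?_, ?_, ?_, ?_, ?_, planar_sum h.planar⟩
  · rintro (x | b)
    · simp [Dat.ext, h.α_α]
    · simp [Dat.ext]
  · rintro (x | b)
    · rw [ext_live_inl, h.live_iff]; simp [Dat.ext]
    · simp [Dat.ext]
  · rintro (x | b) hx
    · rw [ext_live_inl] at hx
      simp [Dat.ext, h.dead x hx]
    · simp [Dat.ext]
  · rintro (x | b) hx
    · rw [ext_live_inl] at hx
      exact h.lab_α x hx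
    · exact absurd hx (ext_live_inr y g b)
  · rintro (x | b) ε hx
    · exact h.lab_edge x ε hx
    · simp [Dat.ext] at hx
  · rintro (x | b)
    · exact h.edge_φ x
    · simp [Dat.ext]
  · rintro (x | b) hx
    · rw [ext_live_inl] at hx
      exact h.pos_φ x hx
    · exact absurd hx (ext_live_inr y g b)
  · rintro (x | b) hx
    · rw [ext_live_inl] at hx
      exact h.pos_α x hx
    · exact absurd hx (ext_live_inr y g b)

omit [Group G] [DecidableEq D] in
theorem Bd.ext {bd : List D} (hb : Bd Δ bd) : Bd (Δ.ext y g) (bd.map Sum.inl) := by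
  refine ⟨hb.nodup.map Sum.inl_injective, ?_, ?_⟩
  · rintro (x | b)
    · rw [ext_live_inl, List.mem_map_of_injective Sum.inl_injective, hb.mem]; rfl
    · simp [Dat.ext]
  · have := hb.cyc
    unfold Cyc at this ⊢
    rw [← List.map_rotate, ← this, List.map_map, List.map_map]
    rfl

omit [Group G] [DecidableEq D] in
theorem nBrk_ext : nBrk Γ (Δ.ext y g) = nBrk Γ Δ := by
  unfold nBrk
  conv_rhs => rw [← Finset.card_map (Function.Embedding.inl (β := Bool))]
  congr 1
  ext x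
  rcases x with x | b
  · rw [mem_brk, ext_live_inl]
    simp only [Finset.mem_map, Function.Embedding.inl_apply, Sum.inl.injEq, exists_eq_right,
      mem_brk]
    rfl
  · rw [mem_brk]
    simp [Dat.ext]

omit [Group G] [DecidableEq D] in
theorem tot_ext : tot F (Δ.ext y g) = tot F Δ := by
  unfold tot
  change ∑ d ∈ Δ.live.map Function.Embedding.inl, _ = _
  rw [Finset.sum_map]
  rfl

end ext

/-- revive two dead darts as a new edge, with new face permutation `φ'` -/
def Dat.ins (Δ : Dat G E T D) (d e : D) (φ' : Perm D) : Dat G E T D :=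
  { Δ with φ := φ', α := Δ.α * swap d e, live := insert d (insert e Δ.live) }

/-- `d`, `e` are two dead boundary darts that fit together -/
structure Fresh (π : FreeGroup T →* G) (Δ : Dat G E T D) (d e : D) : Prop where
  ne : d ≠ e
  hd : d ∉ Δ.live
  he : e ∉ Δ.live
  ed : Δ.edge d = none
  ee : Δ.edge e = none
  lab : Δ.lab e = flp (Δ.lab d)
  pos : Δ.pos e = Δ.pos d * val π [Δ.lab d]

theorem Ok.ins (h : Ok Γ π Δ) {d e : D} (hf : Fresh π Δ d e) {φ' : Perm D}
    (hpl : Planar φ' (Δ.α * swap d e))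
    (hφ : ∀ x, φ' x = Δ.φ x ∧ x ≠ d ∧ x ≠ e ∨
      (x = d ∨ x = e ∨ x ∈ Δ.live) ∧ Δ.edge x = none ∧ Δ.edge (φ' x) = none ∧
        Δ.pos (φ' x) = Δ.pos x * val π [Δ.lab x]) :
    Ok Γ π (Δ.ins d e φ') ∧ nBrk Γ (Δ.ins d e φ') ≤ nBrk Γ Δ ∧
      tot F (Δ.ins d e φ') = tot F Δ := by
  have ad := h.α_dead hf.hd
  have ae := h.α_dead hf.he
  have hα : ∀ x, x ≠ d → x ≠ e → (Δ.α * swap d e) x = Δ.α x := fun x h1 h2 => by
    rw [Perm.mul_apply, swap_apply_of_ne_of_ne h1 h2]
  have hα1 : (Δ.α * swap d e) d = e := by rw [Perm.mul_apply, swap_apply_left, ae]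
  have hα2 : (Δ.α * swap d e) e = d := by rw [Perm.mul_apply, swap_apply_right, ad]
  have hmem : ∀ x, x ∈ (Δ.ins d e φ').live ↔ x = d ∨ x = e ∨ x ∈ Δ.live := fun x => by
    simp only [Dat.ins, Finset.mem_insert]
  have hne : ∀ x ∈ Δ.live, x ≠ d ∧ x ≠ e := fun x hx =>
    ⟨fun h1 => hf.hd (h1 ▸ hx), fun h1 => hf.he (h1 ▸ hx)⟩
  refine ⟨⟨?_, ?_, ?_, ?_, h.lab_edge, ?_, ?_, ?_, hpl⟩, ?_, ?_⟩
  · intro x
    change (Δ.α * swap d e) ((Δ.α * swap d e) x) = x
    by_cases h1 : x = d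
    · rw [h1, hα1, hα2]
    by_cases h2 : x = e
    · rw [h2, hα2, hα1]
    rw [hα x h1 h2, hα _ (fun h3 => h1 (Δ.α.injective (h3.trans ad.symm)))
      (fun h3 => h2 (Δ.α.injective (h3.trans ae.symm))), h.α_α]
  · intro x
    rw [hmem]
    change _ ↔ (Δ.α * swap d e) x ≠ x
    by_cases h1 : x = d
    · rw [h1, hα1]; simp [hf.ne.symm]
    by_cases h2 : x = e
    · rw [h2, hα2]; simp [hf.ne]
    rw [hα x h1 h2, ← h.live_iff]
    simp [h1, h2]
  · intro x hx
    rw [hmem] at hx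
    rcases hφ x with h1 | h1
    · exact h1.1.trans (h.dead x fun h2 => hx (Or.inr (Or.inr h2)))
    · exact absurd h1.1 hx
  · intro x hx
    change Δ.lab ((Δ.α * swap d e) x) = flp (Δ.lab x)
    rcases (hmem x).1 hx with rfl | rfl | h1
    · rw [hα1, hf.lab]
    · rw [hα2, hf.lab, flp_flp]
    · rw [hα x (hne x h1).1 (hne x h1).2, h.lab_α x h1]
  · intro x
    change Δ.edge (φ' x) = none ↔ Δ.edge x = none
    rcases hφ x with h1 | h1
    · rw [h1.1, h.edge_φ]
    · exact iff_of_true h1.2.2.1 h1.2.1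
  · intro x hx
    change Δ.pos (φ' x) = Δ.pos x * val π [Δ.lab x]
    rcases hφ x with h1 | h1
    · rcases (hmem x).1 hx with h2 | h2 | h2
      · exact absurd h2 h1.2.1
      · exact absurd h2 h1.2.2
      · rw [h1.1, h.pos_φ x h2]
    · exact h1.2.2.2
  · intro x hx
    change Δ.pos ((Δ.α * swap d e) x) = Δ.pos x * val π [Δ.lab x]
    rcases (hmem x).1 hx with rfl | rfl | h1
    · rw [hα1, hf.pos]
    · rw [hα2, hf.pos, hf.lab, val_flp, mul_inv_cancel_right]
    · rw [hα x (hne x h1).1 (hne x h1).2, h.pos_α x h1]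
  · refine Finset.card_le_card fun x hx => ?_
    obtain ⟨h1, h2⟩ := mem_brk.1 hx
    change (Δ.edge x).map Γ.en ≠ (Δ.edge (φ' x)).map Γ.st at h2
    rcases hφ x with h3 | h3
    · rw [h3.1] at h2
      rcases (hmem x).1 h1 with h4 | h4 | h4
      · exact absurd h4 h3.2.1
      · exact absurd h4 h3.2.2
      · exact mem_brk.2 ⟨h4, h2⟩
    · rw [h3.2.1, h3.2.2.1] at h2
      exact absurd rfl h2
  · unfold tot
    change ∑ x ∈ insert d (insert e Δ.live), (Δ.edge x).elim 0 (F (Δ.pos x)) = _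
    rw [Finset.sum_insert (by simp [hf.ne, hf.hd]), Finset.sum_insert hf.he, hf.ed, hf.ee]
    simp

/-- a spur in an empty boundary -/
theorem Ok.newSpur (h : Ok Γ π Δ) (hb : Bd Δ []) {d e : D} (hf : Fresh π Δ d e) :
    ∃ Δ' : Dat G E T D, Ok Γ π Δ' ∧ Bd Δ' [d, e] ∧ Δ'.lab = Δ.lab ∧ Δ'.pos = Δ.pos ∧
      nBrk Γ Δ' ≤ nBrk Γ Δ ∧ tot F Δ' = tot F Δ := by
  have fd := h.dead d hf.hd
  have fe := h.dead e hf.he
  have h1 : (Δ.φ * swap d e) d = e := by rw [Perm.mul_apply, swap_apply_left, fe]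
  have h2 : (Δ.φ * swap d e) e = d := by rw [Perm.mul_apply, swap_apply_right, fd]
  obtain ⟨k1, k2, k3⟩ := h.ins (F := F) hf (φ' := Δ.φ * swap d e)
    (planar_newSpur h.α_α hf.ne fd fe (h.α_dead hf.hd) (h.α_dead hf.he) h.planar) (fun x => by
      by_cases hd : x = d
      · right
        rw [hd, h1]
        exact ⟨Or.inl rfl, hf.ed, hf.ee, hf.pos⟩
      by_cases he : x = e
      · right
        rw [he, h2]
        refine ⟨Or.inr (Or.inl rfl), hf.ee, hf.ed, ?_⟩
        rw [hf.pos, hf.lab, val_flp, mul_inv_cancel_right]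
      · left
        exact ⟨by rw [Perm.mul_apply, swap_apply_of_ne_of_ne hd he], hd, he⟩)
  refine ⟨_, k1, ⟨by simp [hf.ne], fun x => ?_, ?_⟩, rfl, rfl, k2, k3⟩
  · have := hb.mem x
    simp only [List.not_mem_nil, false_iff] at this
    simp only [Dat.ins, Finset.mem_insert, List.mem_cons, List.not_mem_nil, or_false]
    constructor
    · rintro (rfl | rfl)
      · exact ⟨Or.inl rfl, hf.ed⟩
      · exact ⟨Or.inr (Or.inl rfl), hf.ee⟩
    · rintro ⟨h3 | h3 | h3, h4⟩
      · exact Or.inl h3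
      · exact Or.inr h3
      · exact absurd ⟨h3, h4⟩ this
  · rw [cyc_cons]
    change [(Δ.φ * swap d e) d, (Δ.φ * swap d e) e] = _
    rw [h1, h2]; rfl

/-- a spur after the first boundary dart -/
theorem Ok.spur (h : Ok Γ π Δ) {a : D} {l : List D} (hb : Bd Δ (a :: l)) {d e : D}
    (hf : Fresh π Δ d e) (hp : Δ.pos d = Δ.pos a * val π [Δ.lab a]) :
    ∃ Δ' : Dat G E T D, Ok Γ π Δ' ∧ Bd Δ' (a :: d :: e :: l) ∧ Δ'.lab = Δ.lab ∧ Δ'.pos = Δ.pos ∧
      nBrk Γ Δ' ≤ nBrk Γ Δ ∧ tot F Δ' = tot F Δ := by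
  have fd := h.dead d hf.hd
  have fe := h.dead e hf.he
  have ha := (hb.mem a).1 List.mem_cons_self
  have hne : ∀ x ∈ Δ.live, x ≠ d ∧ x ≠ e := fun x hx =>
    ⟨fun h1 => hf.hd (h1 ▸ hx), fun h1 => hf.he (h1 ▸ hx)⟩
  have had := (hne a ha.1).1
  have hae := (hne a ha.1).2
  have h0 : (Δ.φ * (swap a e * swap a d)) a = d := by
    rw [Perm.mul_apply, Perm.mul_apply, swap_apply_left,
      swap_apply_of_ne_of_ne had.symm hf.ne, fd]
  have h1 : (Δ.φ * (swap a e * swap a d)) d = e := by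
    rw [Perm.mul_apply, Perm.mul_apply, swap_apply_right, swap_apply_left, fe]
  have h2 : (Δ.φ * (swap a e * swap a d)) e = Δ.φ a := by
    rw [Perm.mul_apply, Perm.mul_apply, swap_apply_of_ne_of_ne hae.symm hf.ne.symm,
      swap_apply_right]
  have h3 : ∀ x, x ≠ a → x ≠ d → x ≠ e → (Δ.φ * (swap a e * swap a d)) x = Δ.φ x :=
    fun x k1 k2 k3 => by
      rw [Perm.mul_apply, Perm.mul_apply, swap_apply_of_ne_of_ne k1 k2,
        swap_apply_of_ne_of_ne k1 k3]
  obtain ⟨k1, k2, k3⟩ := h.ins (F := F) hf (φ' := Δ.φ * (swap a e * swap a d))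
    (planar_spur h.α_α hf.ne had hae fd fe (h.α_dead hf.hd) (h.α_dead hf.he) h.planar)
    (fun x => by
      by_cases hx : x = a
      · right
        rw [hx, h0]
        exact ⟨Or.inr (Or.inr ha.1), ha.2, hf.ed, hp⟩
      by_cases hd : x = d
      · right
        rw [hd, h1]
        exact ⟨Or.inl rfl, hf.ed, hf.ee, hf.pos⟩
      by_cases he : x = e
      · right
        rw [he, h2]
        refine ⟨Or.inr (Or.inl rfl), hf.ee, (h.edge_φ a).2 ha.2, ?_⟩
        rw [hf.pos, hf.lab, val_flp, mul_inv_cancel_right, hp, h.pos_φ a ha.1]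
      · left
        exact ⟨h3 x hx hd he, hd, he⟩)
  have hn := hb.nodup
  rw [List.nodup_cons] at hn
  have hl : ∀ x ∈ l, x ∈ Δ.live := fun x hx => ((hb.mem x).1 (List.mem_cons_of_mem _ hx)).1
  refine ⟨_, k1, ⟨?_, fun x => ?_, ?_⟩, rfl, rfl, k2, k3⟩
  · simp only [List.nodup_cons, List.mem_cons, not_or]
    exact ⟨⟨had, hae, hn.1⟩, ⟨hf.ne, fun k => hf.hd (hl d k)⟩, fun k => hf.he (hl e k), hn.2⟩
  · have := hb.mem x
    simp only [List.mem_cons] at this
    simp only [Dat.ins, Finset.mem_insert, List.mem_cons]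
    constructor
    · rintro (k | rfl | rfl | k)
      · exact ⟨Or.inr (Or.inr (this.1 (Or.inl k)).1), (this.1 (Or.inl k)).2⟩
      · exact ⟨Or.inl rfl, hf.ed⟩
      · exact ⟨Or.inr (Or.inl rfl), hf.ee⟩
      · exact ⟨Or.inr (Or.inr (this.1 (Or.inr k)).1), (this.1 (Or.inr k)).2⟩
    · rintro ⟨k | k | k, h4⟩
      · exact Or.inr (Or.inl k)
      · exact Or.inr (Or.inr (Or.inl k))
      · rcases this.2 ⟨k, h4⟩ with k' | k'
        · exact Or.inl k'
        · exact Or.inr (Or.inr (Or.inr k'))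
  · have hc := cyc_cons.1 hb.cyc
    rw [cyc_cons]
    change (a :: d :: e :: l).map (Δ.φ * (swap a e * swap a d)) = _
    rw [List.map_cons, List.map_cons, List.map_cons, h0, h1, h2, List.cons_append,
      List.cons_append, ← hc, List.map_cons]
    congr 3
    refine List.map_congr_left fun x hx => h3 x ?_ (hne x (hl x hx)).1 (hne x (hl x hx)).2
    rintro rfl; exact hn.1 hx

end Crest.Agent.R177.VanKampenAux
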