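import Crest.Agent.R177.VanKampen.Basic

/-! Van Kampen lemma, part 2: moves on pre-diagrams (diamond, deletion, reduction). -/

set_option autoImplicit false

namespace Crest.Agent.R177.VanKampenAux

open Equiv

variable {V E T G A : Type} [Group G] [AddCommGroup A]
  {Γ : LG V E T} {π : FreeGroup T →* G} {F : G → E × Bool → A}
  {D : Type} [DecidableEq D] {Δ : Dat G E T D}

/-- change the edge involution only -/
def Dat.setα (Δ : Dat G E T D) (α' : Perm D) : Dat G E T D := { Δ with α := α' }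

/-- fold a cancelling corner -/
theorem Ok.diamond (h : Ok Γ π Δ) {d : D} (hd : d ∈ Δ.live)
    (hl : Δ.lab (Δ.φ d) = flp (Δ.lab d)) :
    ∃ α' : Perm D, Ok Γ π (Δ.setα α') ∧ α' d = Δ.φ d := by
  by_cases h1 : Δ.α d = Δ.φ d
  · exact ⟨Δ.α, h, h1⟩
  set e := Δ.φ d with he
  have hne : d ≠ e := by
    intro h2
    rw [← h2] at hl
    exact flp_ne _ hl.symm
  have hel : e ∈ Δ.live := (h.φ_live d).2 hd
  have hal : Δ.α d ∈ Δ.live := (h.α_live d).2 hd
  have h2 : Δ.α d ≠ d := (h.live_iff d).1 hd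
  have h3 : Δ.α e ≠ e := (h.live_iff e).1 hel
  have s_lab : ∀ x, Δ.lab (swap e (Δ.α d) x) = Δ.lab x :=
    apply_swap_eq_self (by rw [hl, h.lab_α d hd])
  have s_pos : ∀ x, Δ.pos (swap e (Δ.α d) x) = Δ.pos x :=
    apply_swap_eq_self (by rw [h.pos_φ d hd, h.pos_α d hd])
  have s_live : ∀ x, swap e (Δ.α d) x ∈ Δ.live ↔ x ∈ Δ.live := fun x =>
    iff_of_eq (apply_swap_eq_self (v := fun x => x ∈ Δ.live) (propext (iff_of_true hel hal)) x)
  refine ⟨swap e (Δ.α d) * Δ.α * swap e (Δ.α d), ⟨?_, ?_, h.dead, ?_, h.lab_edge, h.edge_φ,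
    h.pos_φ, ?_, planar_diamond h.α_α he.symm hne h1 h2 h3 h.planar⟩, ?_⟩
  · intro x
    simp only [Dat.setα, Perm.mul_apply, swap_apply_self, h.α_α]
  · intro x
    simp only [Dat.setα, Perm.mul_apply]
    rw [← s_live x, h.live_iff, ne_eq, ne_eq, swap_apply_eq_iff]
  · intro x hx
    simp only [Dat.setα, Perm.mul_apply] at hx ⊢
    rw [s_lab, h.lab_α _ ((s_live x).2 hx), s_lab]
  · intro x hx
    simp only [Dat.setα, Perm.mul_apply] at hx ⊢
    rw [s_pos, h.pos_α _ ((s_live x).2 hx), s_lab, s_pos]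
  · simp only [Perm.mul_apply]
    rw [swap_apply_of_ne_of_ne hne h2.symm, swap_apply_right]

/-- delete the edge containing `d` -/
def Dat.del (Δ : Dat G E T D) (d : D) : Dat G E T D :=
  { Δ with
    φ := VanKampenAux.del Δ.φ d (Δ.α d)
    α := Δ.α * swap d (Δ.α d)
    live := (Δ.live.erase d).erase (Δ.α d) }

theorem Ok.del (h : Ok Γ π Δ) {d : D} (hd : d ∈ Δ.live)
    (he : Δ.edge (Δ.α d) = (Δ.edge d).map flp) : Ok Γ π (Δ.del d) := by
  have hne : d ≠ Δ.α d := ((h.live_iff d).1 hd).symm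
  have hal : Δ.α d ∈ Δ.live := (h.α_live d).2 hd
  have hα : ∀ x, x ≠ d → x ≠ Δ.α d → (Δ.α * swap d (Δ.α d)) x = Δ.α x := fun x h1 h2 => by
    rw [Perm.mul_apply, swap_apply_of_ne_of_ne h1 h2]
  have hα1 : (Δ.α * swap d (Δ.α d)) d = d := by
    rw [Perm.mul_apply, swap_apply_left, h.α_α]
  have hα2 : (Δ.α * swap d (Δ.α d)) (Δ.α d) = Δ.α d := by
    rw [Perm.mul_apply, swap_apply_right]
  have hmem : ∀ x, x ∈ (Δ.del d).live ↔ x ≠ Δ.α d ∧ x ≠ d ∧ x ∈ Δ.live := fun x => by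
    simp only [Dat.del, Finset.mem_erase]
  refine ⟨?_, ?_, ?_, ?_, h.lab_edge, ?_, ?_, ?_,
    planar_delete h.α_α rfl hne h.planar⟩
  · intro x
    change (Δ.α * swap d (Δ.α d)) ((Δ.α * swap d (Δ.α d)) x) = x
    by_cases h1 : x = d
    · rw [h1, hα1, hα1]
    by_cases h2 : x = Δ.α d
    · rw [h2, hα2, hα2]
    rw [hα x h1 h2, hα _ (fun h3 => h2 (by rw [← h3, h.α_α]))
      (fun h3 => h1 (Δ.α.injective h3)), h.α_α]
  · intro x
    rw [hmem]
    change _ ↔ (Δ.α * swap d (Δ.α d)) x ≠ x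
    by_cases h1 : x = d
    · rw [h1, hα1]; simp
    by_cases h2 : x = Δ.α d
    · rw [h2, hα2]; simp
    rw [hα x h1 h2, ← h.live_iff]
    simp [h1, h2]
  · intro x hx
    change VanKampenAux.del Δ.φ d (Δ.α d) x = x
    by_cases h1 : x = d
    · rw [h1, del_left _ hne]
    by_cases h2 : x = Δ.α d
    · rw [h2, del_right]
    have h3 : x ∉ Δ.live := fun h3 => hx ((hmem x).2 ⟨h2, h1, h3⟩)
    have h4 := h.dead x h3
    rw [del_of_ne _ h1 h2 (by rw [h4]; exact h1) (by rw [h4]; exact h2), h4]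
  · intro x hx
    obtain ⟨h2, h1, h3⟩ := (hmem x).1 hx
    change Δ.lab ((Δ.α * swap d (Δ.α d)) x) = flp (Δ.lab x)
    rw [hα x h1 h2, h.lab_α x h3]
  · intro x
    change Δ.edge (VanKampenAux.del Δ.φ d (Δ.α d) x) = none ↔ Δ.edge x = none
    by_cases h1 : x = d
    · rw [h1, del_left _ hne]
    by_cases h2 : x = Δ.α d
    · rw [h2, del_right]
    by_cases h3 : x ∈ Δ.live
    · have e1 : (Δ.edge d = none) = (Δ.edge (Δ.α d) = none) := by rw [he]; simp
      exact iff_of_eq (del_step Δ.φ (fun x => Δ.edge x = none) (fun x => Δ.edge x = none) Δ.live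
        hne hd hal e1 e1.symm (fun y _ => propext (h.edge_φ y).symm) h3 h1 h2).symm
    · have h4 := h.dead x h3
      rw [del_of_ne _ h1 h2 (by rw [h4]; exact h1) (by rw [h4]; exact h2), h4]
  · intro x hx
    obtain ⟨h2, h1, h3⟩ := (hmem x).1 hx
    refine (del_step Δ.φ Δ.pos (fun x => Δ.pos x * val π [Δ.lab x]) Δ.live hne hd hal
      (h.pos_α d hd).symm ?_ (fun y hy => (h.pos_φ y hy).symm) h3 h1 h2).symm
    have := h.pos_α _ hal
    rw [h.α_α] at this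
    exact this.symm
  · intro x hx
    obtain ⟨h2, h1, h3⟩ := (hmem x).1 hx
    change Δ.pos ((Δ.α * swap d (Δ.α d)) x) = _
    rw [hα x h1 h2, h.pos_α x h3]
    rfl

theorem Ok.nBrk_del (h : Ok Γ π Δ) {d : D} (hd : d ∈ Δ.live)
    (he : Δ.edge (Δ.α d) = (Δ.edge d).map flp) : nBrk Γ (Δ.del d) ≤ nBrk Γ Δ := by
  have hne : d ≠ Δ.α d := ((h.live_iff d).1 hd).symm
  have hal : Δ.α d ∈ Δ.live := (h.α_live d).2 hd
  refine brk_del Δ.φ (fun d => (Δ.edge d).map Γ.st) (fun d => (Δ.edge d).map Γ.en) Δ.live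
    hne hd hal ?_ ?_
  · rw [he]
    cases Δ.edge d <;> simp
  · rw [he]
    cases Δ.edge d <;> simp

theorem Ok.tot_del (h : Ok Γ π Δ) (hF : Anti Γ π F) {d : D} (hd : d ∈ Δ.live)
    (he : Δ.edge (Δ.α d) = (Δ.edge d).map flp) : tot F (Δ.del d) = tot F Δ := by
  have hne : d ≠ Δ.α d := ((h.live_iff d).1 hd).symm
  have hal : Δ.α d ∈ Δ.live := (h.α_live d).2 hd
  unfold tot
  rw [← Finset.add_sum_erase _ _ hd,
    ← Finset.add_sum_erase _ _ (Finset.mem_erase.2 ⟨hne.symm, hal⟩), ← add_assoc]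
  have : (Δ.edge d).elim 0 (F (Δ.pos d)) + (Δ.edge (Δ.α d)).elim 0 (F (Δ.pos (Δ.α d))) = 0 := by
    rw [he, h.pos_α d hd]
    rcases h1 : Δ.edge d with _ | ε
    · simp
    · rw [h.lab_edge d ε h1]
      simp [hF _ ε]
  rw [this, zero_add]
  rfl

omit [Group G] in
theorem card_del {d : D} (hd : d ∈ Δ.live) : (Δ.del d).live.card < Δ.live.card :=
  lt_of_le_of_lt Finset.card_erase_le (Finset.card_erase_lt_of_mem hd)

/-- deleting an inner edge does not change the boundary -/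
theorem Ok.bd_del_inner (h : Ok Γ π Δ) {bd : List D} (hb : Bd Δ bd) {d : D}
    (h1 : Δ.edge d ≠ none) (h2 : Δ.edge (Δ.α d) ≠ none) : Bd (Δ.del d) bd := by
  have key : ∀ x, Δ.edge x = none → x ≠ d ∧ x ≠ Δ.α d := fun x hx =>
    ⟨fun h3 => h1 (h3 ▸ hx), fun h3 => h2 (h3 ▸ hx)⟩
  refine ⟨hb.nodup, fun x => ?_, hb.cyc.congr fun x hx => ?_⟩
  · rw [hb.mem]
    simp only [Dat.del, Finset.mem_erase]
    exact ⟨fun h3 => ⟨⟨(key x h3.2).2, (key x h3.2).1, h3.1⟩, h3.2⟩, fun h3 => ⟨h3.1.2.2, h3.2⟩⟩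
  · have h3 := ((hb.mem x).1 hx).2
    have h4 := (h.edge_φ x).2 h3
    exact del_of_ne _ (key x h3).1 (key x h3).2 (key _ h4).1 (key _ h4).2

omit [Group G] in
/-- deleting a boundary spur -/
theorem bd_del_spur {d e : D} {l : List D} (hb : Bd Δ (d :: e :: l)) (he : Δ.α d = e) :
    Bd (Δ.del d) l := by
  have hn := hb.nodup
  have hn' := hn
  rw [List.nodup_cons, List.nodup_cons] at hn'
  have hne : d ≠ e := fun h1 => hn'.1 (h1 ▸ List.mem_cons_self)
  have hφ : Δ.φ d = e := by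
    have := cyc_cons.1 hb.cyc
    simp only [List.map_cons, List.cons_append, List.cons.injEq] at this
    exact this.1
  refine ⟨hn'.2.2, fun x => ?_, ?_⟩
  · simp only [Dat.del, Finset.mem_erase, he]
    have := hb.mem x
    simp only [List.mem_cons] at this
    constructor
    · intro hx
      have h1 := this.1 (Or.inr (Or.inr hx))
      refine ⟨⟨?_, ?_, h1.1⟩, h1.2⟩
      · rintro rfl; exact hn'.2.1 hx
      · rintro rfl; exact hn'.1 (List.mem_cons_of_mem _ hx)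
    · rintro ⟨⟨h1, h2, h3⟩, h4⟩
      rcases this.2 ⟨h3, h4⟩ with h5 | h5 | h5
      · exact absurd h5 h2
      · exact absurd h5 h1
      · exact h5
  · change Cyc (VanKampenAux.del Δ.φ d (Δ.α d)) l
    rw [he, del_spur _ hne hφ]
    -- remove `e`, then `d`
    have c1 : Cyc Δ.φ (e :: (l ++ [d])) := hb.cyc.rot
    have n1 : (e :: (l ++ [d])).Nodup := by
      have : (e :: (l ++ [d])).Perm (d :: e :: l) := List.perm_append_singleton d (e :: l)
      exact this.nodup_iff.2 hn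
    have c2 : Cyc (skip Δ.φ e) (l ++ [d]) := c1.skip n1
    have c3 : Cyc (skip Δ.φ e) (d :: l) := by
      have : d :: l = (l ++ [d]).rotate l.length := by
        rw [List.rotate_append_length_eq]; rfl
      unfold Cyc at c2 ⊢
      rw [this, List.map_rotate, c2, List.rotate_rotate, List.rotate_rotate, add_comm]
    refine c3.skip ?_
    rw [List.nodup_cons]
    exact ⟨fun h1 => hn'.1 (List.mem_cons_of_mem _ h1), hn'.2.2⟩

/-- reduced pre-diagram -/
def Red (Δ : Dat G E T D) : Prop :=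
  ∀ d ∈ Δ.live, ∀ ε, Δ.edge d = some ε →
    Δ.edge (Δ.α d) ≠ some (flp ε) ∧ Δ.edge (Δ.φ d) ≠ some (flp ε)

theorem reduce (hF : Anti Γ π F) {bd : List D} (n : ℕ) : ∀ Δ : Dat G E T D, Δ.live.card ≤ n →
    Ok Γ π Δ → Bd Δ bd → ∃ Δ' : Dat G E T D, Ok Γ π Δ' ∧ Bd Δ' bd ∧ Δ'.lab = Δ.lab ∧
      nBrk Γ Δ' ≤ nBrk Γ Δ ∧ tot F Δ' = tot F Δ ∧ Red Δ' := by
  induction n with
  | zero =>
    intro Δ hn h hb
    refine ⟨Δ, h, hb, rfl, le_rfl, rfl, fun d hd => ?_⟩
    rw [Nat.le_zero, Finset.card_eq_zero] at hn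
    rw [hn] at hd
    exact absurd hd (Finset.notMem_empty _)
  | succ n ih =>
    have step : ∀ Δ : Dat G E T D, Δ.live.card ≤ n + 1 → Ok Γ π Δ → Bd Δ bd →
        ∀ d ∈ Δ.live, ∀ ε, Δ.edge d = some ε → Δ.edge (Δ.α d) = some (flp ε) →
        ∃ Δ' : Dat G E T D, Ok Γ π Δ' ∧ Bd Δ' bd ∧ Δ'.lab = Δ.lab ∧
          nBrk Γ Δ' ≤ nBrk Γ Δ ∧ tot F Δ' = tot F Δ ∧ Red Δ' := by
      intro Δ hn h hb d hd ε h1 h2
      have he : Δ.edge (Δ.α d) = (Δ.edge d).map flp := by rw [h1, h2]; rfl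
      obtain ⟨Δ', k1, k2, k3, k4, k5, k6⟩ := ih (Δ.del d)
        (by have := card_del hd; omega) (h.del hd he)
        (h.bd_del_inner hb (by rw [h1]; simp) (by rw [h2]; simp))
      exact ⟨Δ', k1, k2, k3, k4.trans (h.nBrk_del hd he), k5.trans (h.tot_del hF hd he), k6⟩
    intro Δ hn h hb
    by_cases hr : Red Δ
    · exact ⟨Δ, h, hb, rfl, le_rfl, rfl, hr⟩
    unfold Red at hr
    push Not at hr
    obtain ⟨d, hd, ε, h1, h2⟩ := hr
    by_cases h3 : Δ.edge (Δ.α d) = some (flp ε)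
    · exact step Δ hn h hb d hd ε h1 h3
    have h4 := h2 h3
    obtain ⟨α', k1, k2⟩ := h.diamond hd (by
      rw [h.lab_edge _ _ h4, h.lab_edge _ _ h1, LG.lb_flp])
    exact step (Δ.setα α') hn k1 ⟨hb.nodup, hb.mem, hb.cyc⟩ d hd ε h1 (by
      change Δ.edge (α' d) = _
      rw [k2, h4])

end Crest.Agent.R177.VanKampenAux
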