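import Crest.Agent.R177.VanKampen.Grow

/-! Van Kampen lemma, part 4: pinching off a face from the boundary. -/

set_option autoImplicit false

namespace Crest.Agent.R177.VanKampenAux

open Equiv

variable {V E T G A : Type} [Group G] [AddCommGroup A]
  {Γ : LG V E T} {π : FreeGroup T →* G} {F : G → E × Bool → A}
  {D : Type} [DecidableEq D] {Δ : Dat G E T D}

/-- total weight of a walk read from position `g` -/
def fsum (Γ : LG V E T) (π : FreeGroup T →* G) (F : G → E × Bool → A) :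
    G → List (E × Bool) → A
  | _, [] => 0
  | g, ε :: l => F g ε + fsum Γ π F (g * val π [Γ.lb ε]) l

/-- the live boundary darts form two cycles -/
structure Bd2 (Δ : Dat G E T D) (p q : List D) : Prop where
  nodup : (p ++ q).Nodup
  mem : ∀ d, d ∈ p ++ q ↔ d ∈ Δ.live ∧ Δ.edge d = none
  cyc1 : Cyc Δ.φ p
  cyc2 : Cyc Δ.φ q

theorem map_swap_snoc {a b : D} {l : List D} (ha : a ∉ l) (hb : b ∉ l) :
    (l ++ [b]).map (swap a b) = l ++ [a] := by
  rw [List.map_append, List.map_singleton, swap_apply_right]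
  congr 1
  conv_rhs => rw [← List.map_id l]
  refine List.map_congr_left fun x hx => swap_apply_of_ne_of_ne ?_ ?_
  · rintro rfl; exact ha hx
  · rintro rfl; exact hb hx

theorem Ok.pinch [Fintype D] (h : Ok Γ π Δ) {p q : List D} (hb : Bd Δ (p ++ q))
    (hv : val π (p.map Δ.lab) = 1) :
    ∃ Δ' : Dat G E T D, Ok Γ π Δ' ∧ Bd2 Δ' p q ∧ Δ'.lab = Δ.lab ∧ Δ'.pos = Δ.pos ∧
      nBrk Γ Δ' ≤ nBrk Γ Δ ∧ tot F Δ' = tot F Δ := by
  rcases p with _ | ⟨a, p⟩
  · exact ⟨Δ, h, ⟨hb.nodup, hb.mem, cyc_nil _, hb.cyc⟩, rfl, rfl, le_rfl, rfl⟩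
  rcases q with _ | ⟨b, q⟩
  · refine ⟨Δ, h, ⟨hb.nodup, hb.mem, ?_, cyc_nil _⟩, rfl, rfl, le_rfl, rfl⟩
    have := hb.cyc
    rwa [List.append_nil] at this
  have hc : ((a :: p) ++ (b :: q)).map Δ.φ = (p ++ [b]) ++ (q ++ [a]) := by
    have : (a :: (p ++ b :: q)).map Δ.φ = (p ++ b :: q) ++ [a] := cyc_cons.1 hb.cyc
    rw [List.cons_append, this]
    simp
  rw [List.map_append] at hc
  obtain ⟨c1, c2⟩ := List.append_inj hc (by simp)
  have ha := (hb.mem a).1 (by simp)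
  have hb' := (hb.mem b).1 (by simp)
  have hpos : Δ.pos b = Δ.pos a := by
    rw [h.path_pos c1 (fun x hx => ((hb.mem x).1 (List.mem_append_left _ hx)).1), hv, mul_one]
  have s_pos : ∀ x, Δ.pos (swap a b x) = Δ.pos x := apply_swap_eq_self hpos.symm
  have s_edge : ∀ x, Δ.edge (swap a b x) = Δ.edge x :=
    apply_swap_eq_self (by rw [ha.2, hb'.2])
  have hn := hb.nodup
  simp only [List.cons_append, List.nodup_cons, List.mem_append, List.mem_cons, not_or,
    List.nodup_append] at hn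
  refine ⟨{ Δ with φ := swap a b * Δ.φ }, ⟨h.α_α, h.live_iff, ?_, h.lab_α, h.lab_edge, ?_, ?_,
    h.pos_α, ?_⟩, ⟨hb.nodup, hb.mem, ?_, ?_⟩, rfl, rfl, ?_, rfl⟩
  · intro x hx
    change swap a b (Δ.φ x) = x
    rw [h.dead x hx]
    exact swap_apply_of_ne_of_ne (fun k => hx (k ▸ ha.1)) (fun k => hx (k ▸ hb'.1))
  · intro x
    change Δ.edge (swap a b (Δ.φ x)) = none ↔ _
    rw [s_edge, h.edge_φ]
  · intro x hx
    change Δ.pos (swap a b (Δ.φ x)) = _
    rw [s_pos, h.pos_φ x hx]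
  · have e : swap a b * Δ.φ = Δ.φ * swap (Δ.φ⁻¹ a) (Δ.φ⁻¹ b) := by
      rw [mul_swap_eq_swap_mul]; simp
    change Planar (swap a b * Δ.φ) Δ.α
    rw [e]
    refine planar_pinch ?_ h.planar
    have : Δ.φ.SameCycle a b := hb.cyc.sameCycle (by simp) (by simp)
    simpa using this
  · rw [cyc_cons]
    change (a :: p).map (swap a b ∘ Δ.φ) = _
    rw [← List.map_map, c1]
    exact map_swap_snoc hn.1.1 (fun k => hn.2.2.2 b k b (Or.inl rfl) rfl)
  · rw [cyc_cons]
    change (b :: q).map (swap a b ∘ Δ.φ) = _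
    rw [← List.map_map, c2, swap_comm]
    exact map_swap_snoc hn.2.2.1.1 hn.1.2.2
  · refine le_of_eq ?_
    unfold nBrk
    congr 1
    ext x
    simp only [mem_brk, Perm.mul_apply, s_edge]

omit [DecidableEq D] in
theorem path_walk {φ : Perm D} {z : D} {f : D → E × Bool} {y : V} :
    ∀ {l : List D} {a : D} {x : V}, (a :: l).map φ = l ++ [z] → Γ.IsWalk x ((a :: l).map f) y →
      ∀ t ∈ a :: l, Γ.en (f t) = Γ.st (f (φ t)) ∨ (φ t = z ∧ Γ.en (f t) = y)
  | [], a, x, h, hw, t, ht => by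
    rw [List.mem_singleton.1 ht]
    right
    exact ⟨by simpa using h, hw.2⟩
  | b :: l, a, x, h, hw, t, ht => by
    simp only [List.map_cons, List.cons_append, List.cons.injEq] at h
    rcases List.mem_cons.1 ht with rfl | ht
    · left
      rw [h.1]
      exact hw.2.1.symm
    · exact path_walk (l := l) (a := b) h.2 hw.2 t ht

omit [DecidableEq D] in
theorem Ok.path_fsum (h : Ok Γ π Δ) {z : D} {f : D → E × Bool} :
    ∀ {l : List D} {a : D}, (a :: l).map Δ.φ = l ++ [z] →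
      (∀ t ∈ a :: l, t ∈ Δ.live ∧ Δ.lab t = Γ.lb (f t)) →
      ((a :: l).map (fun t => F (Δ.pos t) (f t))).sum = fsum Γ π F (Δ.pos a) ((a :: l).map f)
  | [], a, _, _ => by simp [fsum]
  | b :: l, a, h1, h2 => by
    simp only [List.map_cons, List.cons_append, List.cons.injEq] at h1
    have ih := h.path_fsum (l := l) (a := b) (f := f) h1.2
      (fun t ht => h2 t (List.mem_cons_of_mem _ ht))
    have ha := h2 a List.mem_cons_self
    rw [List.map_cons, List.sum_cons, ih, ← h1.1, h.pos_φ a ha.1, ha.2, h1.1]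
    rfl

/-- declare the first boundary cycle to be an inner face carrying the walk `l` -/
theorem Ok.relabel (h : Ok Γ π Δ) {a : D} {p q : List D} (hb : Bd2 Δ (a :: p) q)
    {x y : V} {l : List (E × Bool)} (hw : Γ.IsWalk x l y)
    (hl : (a :: p).map Δ.lab = l.map Γ.lb) :
    ∃ Δ' : Dat G E T D, Ok Γ π Δ' ∧ Bd Δ' q ∧ Δ'.lab = Δ.lab ∧ Δ'.pos = Δ.pos ∧
      nBrk Γ Δ' ≤ nBrk Γ Δ + 1 ∧ (x = y → nBrk Γ Δ' ≤ nBrk Γ Δ) ∧
      tot F Δ' = tot F Δ + fsum Γ π F (Δ.pos a) l := by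
  have hn := hb.nodup
  rw [List.nodup_append] at hn
  have hlen : (a :: p).length = l.length := by simpa using congrArg List.length hl
  obtain ⟨f, rfl⟩ : ∃ f : D → E × Bool, (a :: p).map f = l := by
    rcases l with _ | ⟨ε, l⟩
    · simp at hlen
    · exact exists_map_eq hn.1 hlen ε
  rw [List.map_map] at hl
  have hlab : ∀ t ∈ a :: p, Δ.lab t = Γ.lb (f t) := List.map_inj_left.1 hl
  have hp : ∀ t ∈ a :: p, t ∈ Δ.live ∧ Δ.edge t = none := fun t ht =>
    (hb.mem t).1 (List.mem_append_left _ ht)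
  have c1 := cyc_cons.1 hb.cyc1
  set P := a :: p with hP
  let Δ' : Dat G E T D := { Δ with edge := fun t => if t ∈ P then some (f t) else Δ.edge t }
  have e1 : ∀ t ∈ P, Δ'.edge t = some (f t) := fun t ht => if_pos ht
  have e2 : ∀ t, t ∉ P → Δ'.edge t = Δ.edge t := fun t ht => if_neg ht
  have key : ∀ t ∈ brk Δ'.φ (fun d => (Δ'.edge d).map Γ.st) (fun d => (Δ'.edge d).map Γ.en)
      Δ'.live, t ∈ brk Δ.φ (fun d => (Δ.edge d).map Γ.st) (fun d => (Δ.edge d).map Γ.en) Δ.live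
        ∨ (t = Δ.φ⁻¹ a ∧ x ≠ y) := by
    intro t ht
    obtain ⟨h1, h2⟩ := mem_brk.1 ht
    change (Δ'.edge t).map Γ.en ≠ (Δ'.edge (Δ.φ t)).map Γ.st at h2
    by_cases h3 : t ∈ P
    · right
      rw [e1 t h3, e1 _ (hb.cyc1.mem h3)] at h2
      rcases path_walk c1 hw t h3 with h4 | h4
      · exact absurd (by simp [h4]) h2
      · refine ⟨by rw [← h4.1]; simp, fun h5 => h2 ?_⟩
        have h6 : Γ.st (f a) = x := hw.1
        simp [h4.1, h4.2, h6, h5]
    · left
      rw [e2 t h3, e2 _ (fun k => h3 (hb.cyc1.mem_iff.1 k))] at h2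
      exact mem_brk.2 ⟨h1, h2⟩
  refine ⟨Δ', ⟨h.α_α, h.live_iff, h.dead, h.lab_α, ?_, ?_, h.pos_φ, h.pos_α, h.planar⟩,
    ⟨hn.2.1, fun t => ?_, hb.cyc2⟩, rfl, rfl, ?_, ?_, ?_⟩
  · intro t ε ht
    by_cases h3 : t ∈ P
    · rw [e1 t h3] at ht
      rw [← Option.some.inj ht]
      exact hlab t h3
    · rw [e2 t h3] at ht
      exact h.lab_edge t ε ht
  · intro t
    change Δ'.edge (Δ.φ t) = none ↔ _
    by_cases h3 : t ∈ P
    · rw [e1 t h3, e1 _ (hb.cyc1.mem h3)]; simp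
    · rw [e2 t h3, e2 _ (fun k => h3 (hb.cyc1.mem_iff.1 k)), h.edge_φ]
  · by_cases h3 : t ∈ P
    · rw [e1 t h3]
      exact iff_of_false (fun k => hn.2.2 t h3 t k rfl) (by simp)
    · rw [e2 t h3]
      have := hb.mem t
      rw [List.mem_append] at this
      exact ⟨fun k => this.1 (Or.inr k), fun k => (this.2 k).resolve_left h3⟩
  · unfold nBrk
    refine le_trans (Finset.card_le_card (t := insert (Δ.φ⁻¹ a) _) fun t ht => ?_)
      (Finset.card_insert_le _ _)
    rcases key t ht with k | k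
    · exact Finset.mem_insert_of_mem k
    · rw [k.1]; exact Finset.mem_insert_self _ _
  · intro hxy
    refine Finset.card_le_card fun t ht => ?_
    exact (key t ht).resolve_right fun k => k.2 hxy
  · rw [← h.path_fsum c1 (fun t ht => ⟨(hp t ht).1, hlab t ht⟩), ← List.sum_toFinset _ hn.1]
    have e3 : P.toFinset = Δ.live.filter (fun t => t ∈ P) := by
      ext t
      simp only [List.mem_toFinset, Finset.mem_filter]
      exact ⟨fun k => ⟨(hp t k).1, k⟩, fun k => k.2⟩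
    rw [e3, Finset.sum_filter]
    unfold tot
    rw [← Finset.sum_add_distrib]
    refine Finset.sum_congr rfl fun t _ => ?_
    by_cases h3 : t ∈ P
    · rw [e1 t h3, (hp t h3).2, if_pos h3]; simp; rfl
    · rw [e2 t h3, if_neg h3, add_zero]

end Crest.Agent.R177.VanKampenAux
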